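import Crest.Agent.R18.Dec

/-! Row 18 block FD: primes of degree one and valuation subrings. -/

set_option autoImplicit false
set_option linter.unusedSectionVars false
open scoped Pointwise NumberField
open IsDedekindDomain IntermediateField

namespace Crest.Agent.R18

variable {F E : Type*} [Field F] [NumberField F] [Field E] [Algebra F E] [IsGalois F E]

/-- primes of degree one over `q` of the fixed field of `U` -/
abbrev HomQ (U : Subgroup (E ≃ₐ[F] E)) (q : ℕ) := 𝓞 (fixedField U) →+* ZMod q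

/-- `A` lies over the kernel of `x` -/
def Lies {U : Subgroup (E ≃ₐ[F] E)} {q : ℕ} (A : ValuationSubring E) (x : HomQ U q) : Prop :=
  ∀ y : 𝓞 (fixedField U), A.valuation ((y : fixedField U) : E) < 1 ↔ x y = 0

variable {U U' : Subgroup (E ≃ₐ[F] E)} {q : ℕ} {A B : ValuationSubring E}

theorem Lies.unique {x x' : HomQ U q} (h : Lies A x) (h' : Lies A x') : x = x' := by
  ext y
  obtain ⟨n, hn⟩ := ZMod.intCast_surjective (x y)
  have h1 : x (y - n) = 0 := by rw [map_sub, map_intCast, hn, sub_self]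
  have h2 := (h' _).1 ((h _).2 h1)
  rw [map_sub, map_intCast, sub_eq_zero] at h2
  rw [h2, hn]

theorem Lies.smul {x : HomQ U q} (h : Lies A x) {u : E ≃ₐ[F] E} (hu : u ∈ U) : Lies (u • A) x :=
  fun y => by
    rw [← h y, ← val_smul_lt_one u A, (fix_iff_mem U _).2 (y : fixedField U).2 u hu]

/-- restriction to a subfield -/
noncomputable def resQ (hle : U' ≤ U) (y : HomQ U' q) : HomQ U q :=
  y.comp (NumberField.RingOfIntegers.mapRingHom (inclusion (fixedField_antitone hle)).toRingHom)

theorem Lies.res (hle : U' ≤ U) {y : HomQ U' q} (h : Lies A y) : Lies A (resQ hle y) := fun z =>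
  h (NumberField.RingOfIntegers.mapRingHom (inclusion (fixedField_antitone hle)).toRingHom z)

theorem fd_val_lt {K L : Type*} [Field K] [NumberField K] [Field L] {ι : K →+* L}
    {A : ValuationSubring L} {𝔭 : HeightOneSpectrum (𝓞 K)}
    (h : ∀ x y : K, A.valuation (ι x) ≤ A.valuation (ι y) ↔ 𝔭.valuation K x ≤ 𝔭.valuation K y)
    (y : 𝓞 K) : A.valuation (ι y) < 1 ↔ y ∈ 𝔭.asIdeal := by
  have := h 1 y
  rw [map_one, map_one, map_one] at this
  rw [← not_le, this, not_le]
  exact 𝔭.valuation_lt_one_iff_mem y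

theorem exists_lies (hU : IsOpen (U : Set (E ≃ₐ[F] E))) (hq : q.Prime) (x : HomQ U q) :
    ∃ A, Over A q ∧ Lies A x := by
  have := numberField_fixedField U hU
  have := Fact.mk hq
  have h0 : x (q : 𝓞 (fixedField U)) = 0 := by simp
  let 𝔭 : HeightOneSpectrum (𝓞 (fixedField U)) := ⟨RingHom.ker x, RingHom.ker_isPrime x, fun h => by
    have : (q : 𝓞 (fixedField U)) ∈ RingHom.ker x := h0
    rw [h, Ideal.mem_bot] at this
    exact hq.ne_zero (by exact_mod_cast this)⟩
  obtain ⟨A, p, -, -, h⟩ := exists_val_above (algebraMap (fixedField U) E) 𝔭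
  have hl : Lies A x := fun y => fd_val_lt h y
  exact ⟨A, ⟨hq, by simpa using (hl q).2 h0⟩, hl⟩

theorem Lies.conj (hU : IsOpen (U : Set (E ≃ₐ[F] E))) (hA : Over A q) (hB : Over B q)
    {x : HomQ U q} (h : Lies A x) (h' : Lies B x) : ∃ u ∈ U, u • A = B := by
  have := numberField_fixedField U hU
  obtain ⟨𝔭, -, h1⟩ := exists_prime_below (algebraMap (fixedField U) E) A hA
  obtain ⟨𝔮, -, h2⟩ := exists_prime_below (algebraMap (fixedField U) E) B hB
  obtain rfl : 𝔭 = 𝔮 := HeightOneSpectrum.ext (Ideal.ext fun y =>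
    ((fd_val_lt h1 y).symm.trans (h y)).trans ((h' y).symm.trans (fd_val_lt h2 y)))
  refine conj_of_agree U hU hA fun z hz => ?_
  have h3 := (h1 ⟨z, (fix_iff_mem U z).1 hz⟩ 1).trans (h2 _ 1).symm
  simp only [map_one] at h3
  rw [← A.valuation_le_one_iff, ← B.valuation_le_one_iff]
  exact h3

theorem Lies.frob (hU : IsOpen (U : Set (E ≃ₐ[F] E))) (hA : Over A q) {x : HomQ U q}
    (h : Lies A x) : ∃ φ ∈ U, Frob A φ q := by
  have := numberField_fixedField U hU
  have := Fact.mk hA.1
  obtain ⟨𝔭, -, h1⟩ := exists_prime_below (algebraMap (fixedField U) E) A hA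
  have h2 := exists_frob U hU hA 1 fun z hz hf => by
    have h3 := (h1 ⟨z, (fix_iff_mem U z).1 hf⟩ 1).1 (by
      rw [map_one, map_one]; exact (A.valuation_le_one_iff z).2 hz)
    rw [map_one] at h3
    obtain ⟨n, d, hnd⟩ := 𝔭.exists_primeCompl_mul_eq_of_integer _ h3
    have h4 : z * (((d : 𝓞 (fixedField U)) : fixedField U) : E) = ((n : fixedField U) : E) :=
      congrArg Subtype.val hnd
    have h5 : A.valuation (((d : 𝓞 (fixedField U)) : fixedField U) : E) = 1 :=
      le_antisymm ((A.valuation_le_one_iff _).2 (mem_of_isIntegral A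
        (map_isIntegral_int (algebraMap (fixedField U) E) (d : 𝓞 (fixedField U)).2)))
        (not_lt.1 fun hh => d.2 ((fd_val_lt h1 _).1 hh))
    have h6 := (h (n * (d : 𝓞 (fixedField U)) ^ q - n ^ q * d)).2 (by
      simp only [map_sub, map_mul, map_pow, ZMod.pow_card]; ring)
    have h7 : (((n * (d : 𝓞 (fixedField U)) ^ q - n ^ q * d : 𝓞 (fixedField U)) : fixedField U) : E) =
        (z - z ^ q) * ((((d : 𝓞 (fixedField U)) : fixedField U) : E) ^ (q + 1)) := by
      push_cast
      rw [← h4]; ring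
    rwa [h7, map_mul, map_pow, h5, one_pow, mul_one, ← pow_one q] at h6
  rwa [pow_one] at h2

theorem lies_of_frob (hA : Over A q) {φ : E ≃ₐ[F] E} (hφ : φ ∈ U) (h : Frob A φ q) :
    ∃ x : HomQ U q, Lies A x := by
  have := Fact.mk hA.1
  have hm : ∀ y : 𝓞 (fixedField U), ((y : fixedField U) : E) ∈ A := fun y =>
    mem_of_isIntegral A (map_isIntegral_int (algebraMap (fixedField U) E) y.2)
  let ψ₀ : 𝓞 (fixedField U) →+* A :=
    ((algebraMap (fixedField U) E).comp (algebraMap _ _)).codRestrict A hm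
  let ψ := (IsLocalRing.residue A).comp ψ₀
  have h0 : ∀ a : A, IsLocalRing.residue A a = 0 ↔ A.valuation (a : E) < 1 := fun a => by
    rw [IsLocalRing.residue_eq_zero_iff, A.valuation_lt_one_iff]
  have : CharP (IsLocalRing.ResidueField A) q := (CharP.charP_iff_prime_eq_zero hA.1).2 (by
    rw [← map_natCast (IsLocalRing.residue A), h0]; simpa using hA.2)
  let c := ZMod.castHom (dvd_refl q) (IsLocalRing.ResidueField A)
  have h1 : ∀ y, ψ y ∈ c.fieldRange := fun y => by
    refine bot_le (a := c.fieldRange) ((Subfield.mem_bot_iff_pow_eq_self _ q).2 ?_)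
    have h2 := h.2 _ (hm y)
    rw [(fix_iff_mem U _).2 (y : fixedField U).2 φ hφ] at h2
    have h3 := (h0 (ψ₀ y - ψ₀ y ^ q)).2 h2
    rw [map_sub, map_pow, sub_eq_zero] at h3
    exact h3.symm
  refine ⟨c.rangeRestrictFieldEquiv.symm.toRingHom.comp (ψ.codRestrict c.fieldRange h1), fun y => ?_⟩
  refine (h0 (ψ₀ y)).symm.trans ?_
  rw [RingHom.comp_apply, RingEquiv.toRingHom_eq_coe, RingHom.coe_coe, map_eq_zero_iff _
    c.rangeRestrictFieldEquiv.symm.injective, Subtype.ext_iff]
  rfl

theorem finite_homQ (hU : IsOpen (U : Set (E ≃ₐ[F] E))) (hq : q.Prime) : Finite (HomQ U q) := by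
  have := numberField_fixedField U hU
  have := Fact.mk hq
  refine Finite.of_injective
    (fun (x : HomQ U q) i => x (NumberField.RingOfIntegers.basis (fixedField U) i)) fun x x' h => ?_
  have := (NumberField.RingOfIntegers.basis (fixedField U)).ext
    (f₁ := x.toAddMonoidHom.toIntLinearMap) (f₂ := x'.toAddMonoidHom.toIntLinearMap) (congrFun h)
  exact RingHom.ext fun y => LinearMap.congr_fun this y

open Classical in
/-- the number of primes of degree one above a prime of degree one -/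
theorem card_fiber (hU : IsOpen (U : Set (E ≃ₐ[F] E))) (hU' : IsOpen (U' : Set (E ≃ₐ[F] E)))
    (hle : U' ≤ U) (hn : ∀ u ∈ U, ∀ w ∈ U', u * w * u⁻¹ ∈ U')
    (hd : ∀ A : ValuationSubring E, Over A q → (∀ g, Inert A g → g ∈ U') ∧
      ∀ φ, Frob A φ q → ∀ g, Stab A g → ∃ a : ℕ, (φ ^ a)⁻¹ * g ∈ U')
    (hA : Over A q) {x : HomQ U q} (hx : Lies A x) {φ : E ≃ₐ[F] E} (h : Frob A φ q) :
    Nat.card {y : HomQ U' q // resQ hle y = x} = if φ ∈ U' then U'.relIndex U else 0 := by
  have hs : ∀ y : {y : HomQ U' q // resQ hle y = x}, ∃ u ∈ U, Lies (u • A) y.1 := fun y => by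
    obtain ⟨B, hB, hy⟩ := exists_lies hU' hA.1 y.1
    obtain ⟨u, hu, rfl⟩ := hx.conj hU hA hB (y.2 ▸ hy.res hle)
    exact ⟨u, hu, hy⟩
  split_ifs with hφ
  · choose f hf using fun u : U => lies_of_frob (U := U') (hA.smul u.1) (hn _ u.2 _ hφ) (h.conj u.1)
    let f' : U → {y : HomQ U' q // resQ hle y = x} := fun u =>
      ⟨f u, ((hf u).res hle).unique (hx.smul u.2)⟩
    have h1 : Function.Surjective f' := fun y => by
      obtain ⟨u, hu, hy⟩ := hs y
      exact ⟨⟨u, hu⟩, Subtype.ext ((hf _).unique hy)⟩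
    have h2 : QuotientGroup.leftRel (U'.subgroupOf U) = Setoid.ker f' := by
      ext u u'
      rw [QuotientGroup.leftRel_apply, Setoid.ker_def, Subgroup.mem_subgroupOf, Subtype.ext_iff]
      constructor
      · intro hh
        have h3 := (hf u).smul (hn _ u.2 _ hh)
        rw [smul_smul] at h3
        refine h3.unique ?_
        convert hf u' using 2
        simp
      · intro hh
        obtain ⟨c, hc, h3⟩ := (hf u').conj hU' (hA.smul _) (hA.smul _)
          (show Lies (u.1 • A) (f u') from (show f u = f u' from hh) ▸ hf u)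
        have h4 : Stab A (u.1⁻¹ * c * u'.1) := by
          rw [stab_iff, mul_smul, mul_smul, h3, inv_smul_smul]
        obtain ⟨a, ha⟩ := (hd A hA).2 φ h _ h4
        have h5 := U'.mul_mem (U'.mul_mem (U'.pow_mem hφ a) ha)
          (hn _ (U.inv_mem u'.2) _ (U'.inv_mem hc))
        convert h5 using 1
        simp [mul_assoc]
    rw [← Nat.card_congr (Setoid.quotientKerEquivOfSurjective f' h1), ← h2]
    rfl
  · refine Nat.card_eq_zero.2 (Or.inl ⟨fun y => hφ ?_⟩)
    obtain ⟨u, hu, hy⟩ := hs y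
    obtain ⟨φ', h1, h2⟩ := hy.frob hU' (hA.smul u)
    have h3 := (hd _ (hA.smul u)).1 _ (h2.inert_of_frob (h.conj u))
    have h4 := hn _ (U.inv_mem hu) _ (U'.mul_mem h1 h3)
    convert h4 using 1
    simp [mul_assoc]

end Crest.Agent.R18
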