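import Crest.Agent.R18.Defs
import Crest.Agent.R27.Ku.Exp

/-! Row 18 block FD: the primes of degree one of a number field have Dirichlet density one. -/

set_option autoImplicit false
open scoped NumberField ArithmeticFunction.vonMangoldt Topology
open Filter Crest.Agent.R27.Ku

namespace Crest.Agent.R18

/-- `a p`, `p` prime, are the prime coefficients of a Dirichlet series `log (1/(s-1)) + O(1)` -/
def PD (a : ℕ → ℕ) : Prop :=
  ∃ (c : ℕ → ℝ) (B ρ : ℝ), (∀ n, |c n| ≤ B) ∧ (∀ n, |c n| ≤ B * Λ n) ∧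
    (∀ p : ℕ, p.Prime → c p = a p) ∧
    Tendsto (fun s : ℝ => (LSeries (fun n => (c n : ℂ)) s).re + Real.log (s - 1)) (𝓝[>] 1) (𝓝 ρ)

theorem pd_zero (K : Type) [Field K] [NumberField K] :
    PD fun p => Nat.card (𝓞 K →+* ZMod p) := by
  have hN : (0 : ℝ) ≤ Module.finrank ℚ K := Nat.cast_nonneg _
  have h0 : ∀ n : ℕ, |lamK K n / Real.log n| = lamK K n / Real.log n := fun n =>
    abs_of_nonneg (div_nonneg (lamK_nonneg K n) (Real.log_natCast_nonneg n))
  refine ⟨fun n => lamK K n / Real.log n, 2 * Module.finrank ℚ K,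
    Real.log (NumberField.dedekindZeta_residue K), fun n => ?_, fun n => ?_, fun p hp => ?_, ?_⟩
  · rw [h0]
    refine div_le_of_le_mul₀ (Real.log_natCast_nonneg n) (by positivity) ((lamK_le K n).trans ?_)
    exact mul_le_mul (by linarith) ArithmeticFunction.vonMangoldt_le_log
      ArithmeticFunction.vonMangoldt_nonneg (by positivity)
  · rw [h0]
    have h1 : 0 ≤ (Module.finrank ℚ K : ℝ) * Λ n :=
      mul_nonneg hN ArithmeticFunction.vonMangoldt_nonneg
    rcases le_or_gt n 1 with hn | hn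
    · have : Real.log n = 0 := by interval_cases n <;> simp
      rw [this, div_zero]; linarith
    · have h2 : Real.log 2 ≤ Real.log n := Real.log_le_log two_pos (by exact_mod_cast hn)
      have h3 := Real.log_two_gt_d9
      rw [div_le_iff₀ (by linarith)]
      nlinarith [lamK_le K n]
  · have : Real.log p ≠ 0 := (Real.log_pos (by exact_mod_cast hp.one_lt)).ne'
    simp only [lamK_prime K hp, aK_prime K hp]
    field_simp
  · have h1 := (NumberField.tendsto_sub_one_mul_dedekindZeta_nhdsGT K).norm.log (by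
      rw [Complex.norm_real, norm_ne_zero_iff]; exact NumberField.dedekindZeta_residue_ne_zero K)
    rw [Complex.norm_real, Real.norm_of_nonneg (NumberField.dedekindZeta_residue_pos K).le] at h1
    refine h1.congr' (eventually_mem_nhdsWithin.mono fun s (hs : 1 < s) => ?_)
    have h2 : ((s : ℂ) - 1) = ((s - 1 : ℝ) : ℂ) := by push_cast; rfl
    simp only [zeta_eq, (zeta_exp K (s := s) (by simpa using hs)).1, norm_mul, Complex.norm_exp, h2,
      Complex.norm_real, Complex.ofReal_div]
    rw [Real.log_mul (norm_ne_zero_iff.2 (by linarith)) (Real.exp_ne_zero _), Real.log_exp,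
      Real.norm_eq_abs, Real.log_abs, add_comm]

theorem pd (K : Type*) [Field K] [NumberField K] : PD fun p => Nat.card (𝓞 K →+* ZMod p) := by
  let φ : K →ₐ[ℚ] Qb := IsAlgClosed.lift
  let e : K ≃+* φ.fieldRange := φ.equivFieldRange
  have := NumberField.of_ringEquiv _ _ e
  have h := pd_zero φ.fieldRange
  let e' := NumberField.RingOfIntegers.mapRingEquiv e
  convert h using 2 with p
  exact Nat.card_congr ⟨fun x => x.comp e'.symm, fun x => x.comp e',
    fun x => by ext; simp, fun x => by ext; simp⟩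

theorem pd_comb {ι : Type*} (D : Finset ι) (w : ι → ℝ) (a : ι → ℕ → ℕ) (ha : ∀ d ∈ D, PD (a d))
    (hw : ∑ d ∈ D, w d ≠ 0) (q₀ : ℕ) : ∃ q, q₀ ≤ q ∧ q.Prime ∧ ∑ d ∈ D, w d * a d q ≠ 0 := by
  by_contra hc
  push Not at hc
  choose! c B ρ h1 h2 h3 h4 using ha
  let e : ℕ → ℝ := fun n => ∑ d ∈ D, w d * c d n
  let b : ℕ → ℝ := fun n => (if n < q₀ then |e n| else 0) + (∑ d ∈ D, |w d| * B d) *
    ((if n.Prime then 0 else ArithmeticFunction.vonMangoldt.residueClass (0 : ZMod 1) n) / n)
  have hb : Summable b := (summable_of_ne_finset_zero (s := Finset.range q₀) fun n hn =>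
    if_neg (by simpa using hn)).add
    ((ArithmeticFunction.vonMangoldt.summable_residueClass_non_primes_div _).mul_left _)
  have hB : 0 ≤ ∑ d ∈ D, |w d| * B d :=
    Finset.sum_nonneg fun d hd => mul_nonneg (abs_nonneg _) ((abs_nonneg _).trans (h1 d hd 0))
  have hΛ : ∀ n, ArithmeticFunction.vonMangoldt.residueClass (0 : ZMod 1) n = Λ n := fun n =>
    Set.indicator_of_mem (s := {n : ℕ | (n : ZMod 1) = 0}) (Subsingleton.elim (n : ZMod 1) 0) _
  have h5 : ∀ s : ℝ, 1 < s → ‖LSeries (fun n => (e n : ℂ)) s‖ ≤ ∑' n, b n := fun s hs => by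
    refine tsum_of_norm_bounded hb.hasSum fun n => ?_
    have h6 : 0 ≤ (∑ d ∈ D, |w d| * B d) * ((if n.Prime then 0 else
        ArithmeticFunction.vonMangoldt.residueClass (0 : ZMod 1) n) / n) :=
      mul_nonneg hB (div_nonneg (by
        split_ifs; exacts [le_rfl, hΛ n ▸ ArithmeticFunction.vonMangoldt_nonneg]) n.cast_nonneg)
    have h7 : 0 ≤ if n < q₀ then |e n| else 0 := by split_ifs; exacts [abs_nonneg _, le_rfl]
    rw [LSeries.norm_term_eq]
    split_ifs with hn
    · exact add_nonneg h7 h6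
    have hn1 : (1 : ℝ) ≤ n := by exact_mod_cast Nat.pos_of_ne_zero hn
    have h8 : (n : ℝ) ≤ n ^ s := Real.self_le_rpow_of_one_le hn1 hs.le
    rw [Complex.norm_real, Complex.ofReal_re, Real.norm_eq_abs]
    refine (div_le_div_of_nonneg_left (abs_nonneg _) (by linarith) h8).trans ?_
    by_cases hq : n < q₀
    · simp only [b, if_pos hq]
      linarith [div_le_self (abs_nonneg (e n)) hn1]
    by_cases hp : n.Prime
    · have : e n = 0 := (Finset.sum_congr rfl fun d hd => by rw [h3 d hd n hp]).trans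
        (hc n (not_lt.1 hq) hp)
      rw [this, abs_zero, zero_div]
      exact add_nonneg h7 h6
    · simp only [b, if_neg hq, if_neg hp, zero_add, hΛ, ← mul_div_assoc, Finset.sum_mul]
      refine div_le_div_of_nonneg_right ((Finset.abs_sum_le_sum_abs _ _).trans
        (Finset.sum_le_sum fun d hd => ?_)) (by linarith)
      rw [abs_mul, mul_assoc]
      exact mul_le_mul_of_nonneg_left (h2 d hd n) (abs_nonneg _)
  have h6 : ∀ s : ℝ, 1 < s → (LSeries (fun n => (e n : ℂ)) s).re =
      ∑ d ∈ D, w d * (LSeries (fun n => (c d n : ℂ)) s).re := fun s hs => by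
    have h7 : (fun n => (e n : ℂ)) = ∑ d ∈ D, (w d : ℂ) • fun n => (c d n : ℂ) := by
      funext n; simp [e, Finset.sum_apply]
    rw [h7, LSeries_sum fun d hd => (LSeriesSummable_of_bounded_of_one_lt_real (m := B d)
      (fun n _ => by simpa using h1 d hd n) hs).smul _, Complex.re_sum]
    simp only [LSeries_smul, Complex.re_ofReal_mul]
  have h7 := (tendsto_finsetSum D fun d hd => (h4 d hd).const_mul (w d)).abs
  have h8 : Tendsto (fun s : ℝ => |∑ d ∈ D, w d| * |Real.log (s - 1)|) (𝓝[>] 1) atTop := by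
    refine Tendsto.const_mul_atTop (abs_pos.2 hw) (tendsto_abs_atBot_atTop.comp
      (Real.tendsto_log_nhdsGT_zero.comp ?_))
    refine tendsto_nhdsWithin_iff.2 ⟨?_, eventually_mem_nhdsWithin.mono fun s (hs : 1 < s) =>
      Set.mem_Ioi.2 (sub_pos.2 hs)⟩
    exact ((continuous_sub_right (1 : ℝ)).tendsto' 1 0 (by simp)).mono_left nhdsWithin_le_nhds
  obtain ⟨s, hs1, hs2, hs3⟩ := (eventually_mem_nhdsWithin.and
    ((h7.eventually (gt_mem_nhds (lt_add_one _))).and
      (h8.eventually_gt_atTop (|∑ d ∈ D, w d * ρ d| + 1 + ∑' n, b n)))).exists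
  have h9 := (Complex.abs_re_le_norm _).trans (h5 s hs1)
  simp only [mul_add, Finset.sum_add_distrib, ← h6 s hs1, ← Finset.sum_mul] at hs2
  rw [← abs_mul] at hs3
  have h10 := abs_add_le ((LSeries (fun n => (e n : ℂ)) s).re + (∑ d ∈ D, w d) * Real.log (s - 1))
    (-(LSeries (fun n => (e n : ℂ)) s).re)
  rw [abs_neg, add_neg_cancel_comm] at h10
  linarith

end Crest.Agent.R18
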